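import Vale.Agent.P037.Cut

open Finset

namespace P037Diag

variable {n : ℕ}

open scoped Classical in
/-- One column can be replaced by a set compatible with a biconvex relation on the rows `G`. -/
theorem column_fix (G : Finset (Fin n)) (W : Fin n → Fin n → Prop) (S : Fin n → Prop)
    (hclosed : ∀ x ∈ G, ∀ y ∈ G, ∀ w ∈ G, x < y → y < w → W x y → W y w → W x w)
    (hco : ∀ x ∈ G, ∀ y ∈ G, ∀ w ∈ G, x < y → y < w → W x w → W x y ∨ W y w) :
    ∃ (T : Finset (Fin n)) (z : ℕ), T ⊆ G ∧
      (∀ x ∈ G, ∀ y ∈ G, x < y → x ∈ T → y ∉ T → W x y) ∧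
      (∀ x ∈ G, ∀ y ∈ G, x < y → x ∉ T → y ∈ T → ¬ W x y) ∧
      (G.filter (fun r => (S r ∧ r ∉ T) ∨ (¬ S r ∧ r ∈ T))).card = 2 * z ∧
      z * z ≤ ((G ×ˢ G).filter (fun p => p.1 < p.2 ∧ S p.1 ∧ ¬ S p.2 ∧ ¬ W p.1 p.2)).card +
        ((G ×ˢ G).filter (fun p => p.1 < p.2 ∧ ¬ S p.1 ∧ S p.2 ∧ W p.1 p.2)).card := by
  classical
  set before : Fin n → Fin n → Prop := fun a b => (a < b ∧ ¬ W a b) ∨ (b < a ∧ W b a) with hbefore
  have hirr : ∀ a, ¬ before a a := by
    intro a h
    rcases h with h | h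
    · exact lt_irrefl _ h.1
    · exact lt_irrefl _ h.1
  have htotal : ∀ a b, a ≠ b → before a b ∨ before b a := by
    intro a b hab
    rcases lt_or_gt_of_ne hab with h | h
    · by_cases hw : W a b
      · exact Or.inr (Or.inr ⟨h, hw⟩)
      · exact Or.inl (Or.inl ⟨h, hw⟩)
    · by_cases hw : W b a
      · exact Or.inl (Or.inr ⟨h, hw⟩)
      · exact Or.inr (Or.inl ⟨h, hw⟩)
  have hasym : ∀ a b, before a b → before b a → False := by
    intro a b h1 h2
    rcases h1 with h1 | h1 <;> rcases h2 with h2 | h2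
    · exact lt_asymm h1.1 h2.1
    · exact h1.2 h2.2
    · exact h2.2 h1.2
    · exact lt_asymm h1.1 h2.1
  have htrans : ∀ a ∈ G, ∀ b ∈ G, ∀ d ∈ G, before a b → before b d → before a d := by
    intro a ha b hb d hd hab hbd
    have had : a ≠ d := by
      rintro rfl
      exact hasym _ _ hab hbd
    rcases hab with ⟨h1, h2⟩ | ⟨h1, h2⟩ <;> rcases hbd with ⟨h3, h4⟩ | ⟨h3, h4⟩
    · -- a < b < d
      refine Or.inl ⟨h1.trans h3, fun h => ?_⟩
      rcases hco a ha b hb d hd h1 h3 h with h' | h'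
      · exact h2 h'
      · exact h4 h'
    · -- a < b, d < b, W d b
      rcases lt_or_gt_of_ne had with h5 | h5
      · refine Or.inl ⟨h5, fun h => h2 (hclosed a ha d hd b hb h5 h3 h h4)⟩
      · refine Or.inr ⟨h5, ?_⟩
        rcases hco d hd a ha b hb h5 h1 h4 with h' | h'
        · exact h'
        · exact absurd h' h2
    · -- b < a, W b a, b < d, not W b d
      rcases lt_or_gt_of_ne had with h5 | h5
      · exact Or.inl ⟨h5, fun h => h4 (hclosed b hb a ha d hd h1 h5 h2 h)⟩
      · refine Or.inr ⟨h5, ?_⟩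
        rcases hco b hb d hd a ha h3 h5 h2 with h' | h'
        · exact absurd h' h4
        · exact h'
    · -- d < b < a
      exact Or.inr ⟨h3.trans h1, hclosed d hd b hb a ha h3 h1 h4 h2⟩
  set ρ : Fin n → ℕ := fun a => (G.filter (fun z => before z a)).card with hρ
  have hmono : ∀ a ∈ G, ∀ b ∈ G, before a b → ρ a < ρ b := by
    intro a ha b hb hab
    apply Finset.card_lt_card
    refine ⟨?_, ?_⟩
    · intro z hz
      simp only [mem_filter] at hz ⊢
      exact ⟨hz.1, htrans z hz.1 a ha b hb hz.2 hab⟩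
    · intro hsub
      have : a ∈ G.filter (fun z => before z a) := hsub (by simp [ha, hab])
      simp only [mem_filter] at this
      exact hirr a this.2
  have hinj : Set.InjOn ρ (G : Set (Fin n)) := by
    intro a ha b hb hab
    by_contra hne
    rcases htotal a b hne with h | h
    · have := hmono a ha b hb h
      omega
    · have := hmono b hb a ha h
      omega
  set U := G.filter S with hU
  set V := G.filter (fun r => ¬ S r) with hV
  have hdisj : Disjoint U V := by
    rw [Finset.disjoint_left]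
    intro x hx hx'
    simp only [hU, hV, mem_filter] at hx hx'
    exact hx'.2 hx.2
  obtain ⟨t, z, hz1, hz2, hz3⟩ := cut G U V ρ (Finset.filter_subset _ _) (Finset.filter_subset _ _)
    hdisj hinj
  refine ⟨G.filter (fun r => t ≤ ρ r), z, Finset.filter_subset _ _, ?_, ?_, ?_, ?_⟩
  · intro x hx y hy hxy hxT hyT
    simp only [mem_filter, hx, hy, true_and, not_le] at hxT hyT
    by_contra hw
    have := hmono x hx y hy (Or.inl ⟨hxy, hw⟩)
    omega
  · intro x hx y hy hxy hxT hyT hw
    simp only [mem_filter, hx, hy, true_and, not_le] at hxT hyT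
    have := hmono y hy x hx (Or.inr ⟨hxy, hw⟩)
    omega
  · have hunion : G.filter (fun r => (S r ∧ r ∉ G.filter (fun r => t ≤ ρ r)) ∨
        (¬ S r ∧ r ∈ G.filter (fun r => t ≤ ρ r))) =
        U.filter (fun x => ρ x < t) ∪ V.filter (fun x => t ≤ ρ x) := by
      ext r
      simp only [hU, hV, mem_filter, mem_union, not_and, not_le]
      constructor
      · rintro ⟨hr, ⟨h1, h2⟩ | ⟨h1, h2⟩⟩
        · exact Or.inl ⟨⟨hr, h1⟩, h2 hr⟩
        · exact Or.inr ⟨⟨hr, h1⟩, h2.2⟩
      · rintro (⟨⟨hr, h1⟩, h2⟩ | ⟨⟨hr, h1⟩, h2⟩)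
        · exact ⟨hr, Or.inl ⟨h1, fun _ => h2⟩⟩
        · exact ⟨hr, Or.inr ⟨h1, hr, h2⟩⟩
    rw [hunion, Finset.card_union_of_disjoint, hz1, hz2]
    · ring
    · rw [Finset.disjoint_left]
      intro x hx hx'
      simp only [mem_filter] at hx hx'
      exact (Finset.disjoint_left.1 hdisj) hx.1 hx'.1
  · refine hz3.trans ?_
    set P1 := (G ×ˢ G).filter (fun p => p.1 < p.2 ∧ S p.1 ∧ ¬ S p.2 ∧ ¬ W p.1 p.2) with hP1
    set P2 := (G ×ˢ G).filter (fun p => p.1 < p.2 ∧ ¬ S p.1 ∧ S p.2 ∧ W p.1 p.2) with hP2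
    have hsub : (U ×ˢ V).filter (fun p => ρ p.1 < ρ p.2) ⊆ P1 ∪ P2.image Prod.swap := by
      rintro ⟨u, v⟩ hp
      simp only [hU, hV, mem_filter, mem_product] at hp
      obtain ⟨⟨⟨hu, hSu⟩, hv, hSv⟩, hlt⟩ := hp
      have hne : u ≠ v := by
        rintro rfl
        exact hSv hSu
      have hb : before u v := by
        rcases htotal u v hne with h | h
        · exact h
        · have := hmono v hv u hu h
          omega
      rcases hb with ⟨h1, h2⟩ | ⟨h1, h2⟩
      · apply Finset.mem_union_left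
        simp only [hP1, mem_filter, mem_product]
        exact ⟨⟨hu, hv⟩, h1, hSu, hSv, h2⟩
      · apply Finset.mem_union_right
        refine Finset.mem_image.2 ⟨(v, u), ?_, rfl⟩
        simp only [hP2, mem_filter, mem_product]
        exact ⟨⟨hv, hu⟩, h1, hSv, hSu, h2⟩
    calc _ ≤ (P1 ∪ P2.image Prod.swap).card := Finset.card_le_card hsub
      _ ≤ P1.card + (P2.image Prod.swap).card := Finset.card_union_le _ _
      _ ≤ P1.card + P2.card := by
        have := Finset.card_image_le (s := P2) (f := Prod.swap)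
        omega

end P037Diag
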