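import Mathlib

open Finset

namespace P037Diag

/-- Balanced cut lemma: two disjoint sets in a linearly ranked finite set admit a threshold at which
the number of elements of `U` below it equals the number of elements of `V` above it. -/
theorem cut {α : Type*} [DecidableEq α] (X U V : Finset α) (ρ : α → ℕ) (hU : U ⊆ X) (hV : V ⊆ X)
    (hdisj : Disjoint U V) (hinj : Set.InjOn ρ (X : Set α)) :
    ∃ t z : ℕ, (U.filter (fun x => ρ x < t)).card = z ∧ (V.filter (fun x => t ≤ ρ x)).card = z ∧
      z * z ≤ ((U ×ˢ V).filter (fun p => ρ p.1 < ρ p.2)).card := by
  classical
  set a : ℕ → ℕ := fun t => (U.filter (fun x => ρ x < t)).card with ha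
  set b : ℕ → ℕ := fun t => (V.filter (fun x => t ≤ ρ x)).card with hb
  have hex : ∃ t, b t ≤ a t := by
    refine ⟨(V.sup ρ) + 1, ?_⟩
    have : V.filter (fun x => (V.sup ρ) + 1 ≤ ρ x) = ∅ := by
      apply Finset.filter_eq_empty_iff.2
      intro x hx
      have := Finset.le_sup (f := ρ) hx
      omega
    simp only [hb]
    rw [this]
    simp
  set t0 := Nat.find hex with ht0
  have h0 : b t0 ≤ a t0 := Nat.find_spec hex
  have hab : a t0 = b t0 := by
    apply le_antisymm _ h0
    rcases Nat.eq_zero_or_pos t0 with h | h
    · rw [h]
      simp [ha]
    · obtain ⟨t1, ht1⟩ : ∃ t1, t0 = t1 + 1 := ⟨t0 - 1, by omega⟩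
      have hlt : a t1 < b t1 := by
        have := Nat.find_min hex (m := t1) (by omega)
        omega
      -- one step
      have hstepa : a (t1 + 1) = a t1 + (U.filter (fun x => ρ x = t1)).card := by
        simp only [ha]
        rw [← Finset.card_union_of_disjoint]
        · congr 1
          ext x
          simp only [mem_filter, mem_union]
          constructor
          · rintro ⟨hx, hl⟩
            by_cases h' : ρ x < t1
            · exact Or.inl ⟨hx, h'⟩
            · exact Or.inr ⟨hx, by omega⟩
          · rintro (⟨hx, hl⟩ | ⟨hx, hl⟩)
            · exact ⟨hx, by omega⟩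
            · exact ⟨hx, by omega⟩
        · rw [Finset.disjoint_left]
          intro x hx hx'
          simp only [mem_filter] at hx hx'
          omega
      have hstepb : b t1 = b (t1 + 1) + (V.filter (fun x => ρ x = t1)).card := by
        simp only [hb]
        rw [← Finset.card_union_of_disjoint]
        · congr 1
          ext x
          simp only [mem_filter, mem_union]
          constructor
          · rintro ⟨hx, hl⟩
            by_cases h' : t1 + 1 ≤ ρ x
            · exact Or.inl ⟨hx, h'⟩
            · exact Or.inr ⟨hx, by omega⟩
          · rintro (⟨hx, hl⟩ | ⟨hx, hl⟩)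
            · exact ⟨hx, by omega⟩
            · exact ⟨hx, by omega⟩
        · rw [Finset.disjoint_left]
          intro x hx hx'
          simp only [mem_filter] at hx hx'
          omega
      have hone : (U.filter (fun x => ρ x = t1)).card + (V.filter (fun x => ρ x = t1)).card ≤ 1 := by
        rw [← Finset.card_union_of_disjoint]
        · apply Finset.card_le_one.2
          intro x hx y hy
          have hxX : x ∈ X := by
            simp only [mem_union, mem_filter] at hx
            rcases hx with h | h
            · exact hU h.1
            · exact hV h.1
          have hyX : y ∈ X := by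
            simp only [mem_union, mem_filter] at hy
            rcases hy with h | h
            · exact hU h.1
            · exact hV h.1
          have hxr : ρ x = t1 := by
            simp only [mem_union, mem_filter] at hx
            rcases hx with h | h <;> exact h.2
          have hyr : ρ y = t1 := by
            simp only [mem_union, mem_filter] at hy
            rcases hy with h | h <;> exact h.2
          exact hinj hxX hyX (hxr.trans hyr.symm)
        · rw [Finset.disjoint_left]
          intro x hx hx'
          simp only [mem_filter] at hx hx'
          exact (Finset.disjoint_left.1 hdisj) hx.1 hx'.1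
      rw [ht1]
      omega
  refine ⟨t0, a t0, rfl, hab.symm, ?_⟩
  have hsub : (U.filter (fun x => ρ x < t0)) ×ˢ (V.filter (fun x => t0 ≤ ρ x)) ⊆
      (U ×ˢ V).filter (fun p => ρ p.1 < ρ p.2) := by
    intro p hp
    simp only [mem_product, mem_filter] at hp ⊢
    exact ⟨⟨hp.1.1, hp.2.1⟩, by omega⟩
  have := Finset.card_le_card hsub
  rw [Finset.card_product] at this
  calc a t0 * a t0 = a t0 * b t0 := by rw [hab]
    _ ≤ _ := this

end P037Diag
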