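import Vale.Agent.P037.Sample

open Finset

namespace P037Diag

variable {n K : ℕ}

open scoped Classical

/-- Copies of the pattern on a given ordered pair of columns. -/
noncomputable def M (A : Fin n → Fin n → Bool) (c' c : Fin n) : ℕ :=
  (univ.filter (fun p : Fin n × Fin n => p.1 < p.2 ∧ c' < c ∧ A p.1 c' = true ∧ A p.2 c' = false ∧
    A p.1 c = false ∧ A p.2 c = true)).card

/-- Total number of copies. -/
noncomputable def NN (A : Fin n → Fin n → Bool) : ℕ := ∑ c', ∑ c, M A c' c

/-- The pair of rows `x, y` has a sampled witness column at or before `c`. -/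
def Wit (A : Fin n → Fin n → Bool) (s : Fin K → Fin n) (c x y : Fin n) : Prop :=
  ∃ i, s i ≤ c ∧ A x (s i) = true ∧ A y (s i) = false

noncomputable def typeA (A : Fin n → Fin n → Bool) (s : Fin K → Fin n) (c : Fin n) : ℕ :=
  (univ.filter (fun p : Fin n × Fin n => p.1 < p.2 ∧ A p.1 c = true ∧ A p.2 c = false ∧
    ¬ Wit A s c p.1 p.2)).card

noncomputable def typeB (A : Fin n → Fin n → Bool) (s : Fin K → Fin n) (c : Fin n) : ℕ :=
  (univ.filter (fun p : Fin n × Fin n => p.1 < p.2 ∧ A p.1 c = false ∧ A p.2 c = true ∧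
    Wit A s c p.1 p.2)).card

theorem typeB_le (A : Fin n → Fin n → Bool) (s : Fin K → Fin n) (c : Fin n) :
    typeB A s c ≤ ∑ i, M A (s i) c := by
  unfold typeB M
  refine le_trans (Finset.card_le_card ?_) (Finset.card_biUnion_le (s := univ)
    (t := fun i => univ.filter (fun p : Fin n × Fin n => p.1 < p.2 ∧ s i < c ∧
      A p.1 (s i) = true ∧ A p.2 (s i) = false ∧ A p.1 c = false ∧ A p.2 c = true)))
  intro p hp
  simp only [mem_filter, mem_univ, true_and, mem_biUnion] at hp ⊢
  obtain ⟨h1, h2, h3, i, hi, h4, h5⟩ := hp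
  refine ⟨i, h1, ?_, h4, h5, h2, h3⟩
  apply lt_of_le_of_ne hi
  intro he
  rw [he, h2] at h4
  exact Bool.false_ne_true h4

theorem card_tuples : Fintype.card (Fin K → Fin n) = n ^ K := by
  simp

theorem sum_typeB (A : Fin n → Fin n → Bool) :
    n * ∑ s : Fin K → Fin n, ∑ c, typeB A s c ≤ K * n ^ K * NN A := by
  have h1 : ∑ s : Fin K → Fin n, ∑ c, typeB A s c ≤
      ∑ s : Fin K → Fin n, ∑ c, ∑ i, M A (s i) c :=
    Finset.sum_le_sum fun s _ => Finset.sum_le_sum fun c _ => typeB_le A s c
  refine (Nat.mul_le_mul_left n h1).trans (le_of_eq ?_)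
  have h2 : ∑ s : Fin K → Fin n, ∑ c, ∑ i, M A (s i) c =
      ∑ c, ∑ i, ∑ s : Fin K → Fin n, M A (s i) c := by
    rw [Finset.sum_comm]
    apply Finset.sum_congr rfl
    intro c _
    rw [Finset.sum_comm]
  have h3 : ∀ (c : Fin n) (i : Fin K), n * ∑ s : Fin K → Fin n, M A (s i) c =
      n ^ K * ∑ a, M A a c := by
    intro c i
    have := sum_eval (ι := Fin K) (α := Fin n) i (fun a => M A a c)
    simpa using this
  calc n * ∑ s : Fin K → Fin n, ∑ c, ∑ i, M A (s i) c
      = ∑ c, ∑ i, (n * ∑ s : Fin K → Fin n, M A (s i) c) := by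
        rw [h2]; simp_rw [Finset.mul_sum]
    _ = ∑ c : Fin n, ∑ _i : Fin K, (n ^ K * ∑ a, M A a c) := by simp_rw [h3]
    _ = K * n ^ K * NN A := by
        simp only [Finset.sum_const, Finset.card_univ, Fintype.card_fin, smul_eq_mul]
        unfold NN
        rw [Finset.sum_comm (s := univ) (t := univ) (f := fun c' c => M A c' c)]
        simp only [Finset.mul_sum]
        apply Finset.sum_congr rfl
        intro c _
        apply Finset.sum_congr rfl
        intro a _
        ring

theorem M_self (A : Fin n → Fin n → Bool) (a : Fin n) : M A a a = 0 := by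
  unfold M
  simp

/-- The sum of copies over sampled pairs of columns, averaged over the sample. -/
theorem sum_Z (A : Fin n → Fin n → Bool) :
    n * (n * ∑ s : Fin K → Fin n, ∑ i, ∑ j, M A (s i) (s j)) ≤ K * K * n ^ K * NN A := by
  have h3 : ∀ (i j : Fin K), n * (n * ∑ s : Fin K → Fin n, M A (s i) (s j)) ≤ n ^ K * NN A := by
    intro i j
    by_cases hij : i = j
    · subst hij
      simp [M_self]
    · have := sum_eval2 (ι := Fin K) (α := Fin n) i j hij (fun a b => M A a b)
      simp only [Fintype.card_fin, Fintype.card_pi, Finset.prod_const, Finset.card_univ] at this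
      unfold NN
      exact le_of_eq this
  calc n * (n * ∑ s : Fin K → Fin n, ∑ i, ∑ j, M A (s i) (s j))
      = ∑ i, ∑ j, (n * (n * ∑ s : Fin K → Fin n, M A (s i) (s j))) := by
        have e : ∑ s : Fin K → Fin n, ∑ i, ∑ j, M A (s i) (s j) =
            ∑ i, ∑ j, ∑ s : Fin K → Fin n, M A (s i) (s j) := by
          rw [Finset.sum_comm]
          apply Finset.sum_congr rfl
          intro i _
          rw [Finset.sum_comm]
        rw [e]
        simp only [Finset.mul_sum]
    _ ≤ ∑ _i : Fin K, ∑ _j : Fin K, (n ^ K * NN A) :=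
        Finset.sum_le_sum fun i _ => Finset.sum_le_sum fun j _ => h3 i j
    _ = K * K * n ^ K * NN A := by
        simp only [Finset.sum_const, Finset.card_univ, Fintype.card_fin, smul_eq_mul]
        ring

theorem not_wit_iff (A : Fin n → Fin n → Bool) (s : Fin K → Fin n) (c x y : Fin n) :
    ¬ Wit A s c x y ↔
      ∀ i, ¬ (s i ≤ c ∧ s i ∈ univ.filter (fun d => A x d = true ∧ A y d = false)) := by
  unfold Wit
  simp only [mem_filter, mem_univ, true_and]
  push Not
  rfl

/-- Uncovered pairs, summed over columns and averaged over the sample. -/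
theorem sum_typeA (A : Fin n → Fin n → Bool) :
    (K + 1) * ∑ s : Fin K → Fin n, ∑ c, typeA A s c ≤ n ^ 2 * n ^ (K + 1) := by
  have h1 : ∀ (s : Fin K → Fin n) (c : Fin n), typeA A s c ≤
      ∑ p : Fin n × Fin n, (if (A p.1 c = true ∧ A p.2 c = false) ∧ ¬ Wit A s c p.1 p.2
        then 1 else 0) := by
    intro s c
    unfold typeA
    rw [Finset.card_filter]
    apply Finset.sum_le_sum
    intro p _
    by_cases h : (A p.1 c = true ∧ A p.2 c = false) ∧ ¬ Wit A s c p.1 p.2
    · rw [if_pos h]
      split_ifs <;> omega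
    · rw [if_neg h, if_neg]
      intro h'
      exact h ⟨⟨h'.2.1, h'.2.2.1⟩, h'.2.2.2⟩
  have h2 : ∀ p : Fin n × Fin n, (K + 1) * ∑ s : Fin K → Fin n, ∑ c,
      (if (A p.1 c = true ∧ A p.2 c = false) ∧ ¬ Wit A s c p.1 p.2 then 1 else 0) ≤ n ^ (K + 1) := by
    intro p
    set W := univ.filter (fun d => A p.1 d = true ∧ A p.2 d = false) with hW
    have h3 : ∑ s : Fin K → Fin n, ∑ c,
        (if (A p.1 c = true ∧ A p.2 c = false) ∧ ¬ Wit A s c p.1 p.2 then 1 else 0) =
        ∑ c ∈ W, (univ.filter (fun s : Fin K → Fin n => ∀ i, ¬ (s i ≤ c ∧ s i ∈ W))).card := by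
      rw [Finset.sum_comm]
      rw [hW, Finset.sum_filter]
      apply Finset.sum_congr rfl
      intro c _
      by_cases hc : A p.1 c = true ∧ A p.2 c = false
      · rw [if_pos hc, Finset.card_filter]
        apply Finset.sum_congr rfl
        intro s _
        have := not_wit_iff A s c p.1 p.2
        simp only [hc, and_self, true_and]
        by_cases hw : ¬ Wit A s c p.1 p.2
        · rw [if_pos hw, if_pos (this.1 hw)]
        · rw [if_neg hw, if_neg]
          intro h'
          exact hw (this.2 h')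
      · rw [if_neg hc]
        apply Finset.sum_eq_zero
        intro s _
        rw [if_neg]
        intro h'
        exact hc h'.1
    rw [h3]
    exact uncovered_bound K W
  calc (K + 1) * ∑ s : Fin K → Fin n, ∑ c, typeA A s c
      ≤ (K + 1) * ∑ s : Fin K → Fin n, ∑ c, ∑ p : Fin n × Fin n,
        (if (A p.1 c = true ∧ A p.2 c = false) ∧ ¬ Wit A s c p.1 p.2 then 1 else 0) :=
        Nat.mul_le_mul_left _ (Finset.sum_le_sum fun s _ => Finset.sum_le_sum fun c _ => h1 s c)
    _ = ∑ p : Fin n × Fin n, ((K + 1) * ∑ s : Fin K → Fin n, ∑ c,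
        (if (A p.1 c = true ∧ A p.2 c = false) ∧ ¬ Wit A s c p.1 p.2 then 1 else 0)) := by
        have e : ∑ s : Fin K → Fin n, ∑ c, ∑ p : Fin n × Fin n,
            (if (A p.1 c = true ∧ A p.2 c = false) ∧ ¬ Wit A s c p.1 p.2 then 1 else 0) =
            ∑ p : Fin n × Fin n, ∑ s : Fin K → Fin n, ∑ c,
            (if (A p.1 c = true ∧ A p.2 c = false) ∧ ¬ Wit A s c p.1 p.2 then 1 else 0) := by
          calc _ = ∑ s : Fin K → Fin n, ∑ p : Fin n × Fin n, ∑ c,
                (if (A p.1 c = true ∧ A p.2 c = false) ∧ ¬ Wit A s c p.1 p.2 then 1 else 0) :=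
                Finset.sum_congr rfl fun s _ => Finset.sum_comm
            _ = _ := Finset.sum_comm
        rw [e, Finset.mul_sum]
    _ ≤ ∑ _p : Fin n × Fin n, n ^ (K + 1) := Finset.sum_le_sum fun p _ => h2 p
    _ = n ^ 2 * n ^ (K + 1) := by
        simp [Finset.card_univ, Fintype.card_prod, sq]

end P037Diag
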