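import Vale.Agent.P037.Expect

open Finset

namespace P037Diag

variable {n K : ℕ}

open scoped Classical

/-- A small set of rows destroys all copies on one pair of columns. -/
theorem cover_exists (A : Fin n → Fin n → Bool) (c' c : Fin n) (hlt : c' < c) :
    ∃ (Cov : Finset (Fin n)) (σ : ℕ), Cov.card ≤ 2 * σ ∧ σ * σ ≤ M A c' c ∧
      ∀ x y, x < y → x ∉ Cov → y ∉ Cov →
        ¬ (A x c' = true ∧ A y c' = false ∧ A x c = false ∧ A y c = true) := by
  set U := univ.filter (fun x : Fin n => A x c' = true ∧ A x c = false) with hU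
  set V := univ.filter (fun x : Fin n => A x c' = false ∧ A x c = true) with hV
  have hdisj : Disjoint U V := by
    rw [Finset.disjoint_left]
    intro x hx hx'
    simp only [hU, hV, mem_filter, mem_univ, true_and] at hx hx'
    rw [hx.1] at hx'
    exact absurd hx'.1 (by simp)
  have hinj : Set.InjOn (fun x : Fin n => (x : ℕ)) ((univ : Finset (Fin n)) : Set (Fin n)) := by
    intro x _ y _ h
    exact Fin.ext h
  obtain ⟨t, z, hz1, hz2, hz3⟩ := cut univ U V (fun x : Fin n => (x : ℕ))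
    (Finset.subset_univ _) (Finset.subset_univ _) hdisj hinj
  refine ⟨U.filter (fun x : Fin n => (x : ℕ) < t) ∪ V.filter (fun x : Fin n => t ≤ (x : ℕ)), z,
    ?_, ?_, ?_⟩
  · calc _ ≤ (U.filter (fun x : Fin n => (x : ℕ) < t)).card +
          (V.filter (fun x : Fin n => t ≤ (x : ℕ))).card :=
          Finset.card_union_le _ _
      _ = 2 * z := by rw [hz1, hz2]; ring
  · refine hz3.trans (Finset.card_le_card ?_)
    rintro ⟨u, v⟩ hp
    simp only [hU, hV, mem_filter, mem_product, mem_univ, true_and] at hp ⊢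
    exact ⟨Fin.lt_def.2 hp.2, hlt, hp.1.1.1, hp.1.2.1, hp.1.1.2, hp.1.2.2⟩
  · rintro x y hxy hx hy ⟨h1, h2, h3, h4⟩
    simp only [hU, hV, mem_union, mem_filter, mem_univ, true_and, not_or, not_and, not_lt,
      not_le] at hx hy
    have h5 := hx.1 ⟨h1, h3⟩
    have h6 := hy.2 ⟨h2, h4⟩
    have := Fin.lt_def.1 hxy
    omega

/-- The sampled witness relation is closed on rows that are clean on the sample. -/
theorem wit_closed (A : Fin n → Fin n → Bool) (s : Fin K → Fin n) (c x y w : Fin n)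
    (hxy : x < y) (hyw : y < w)
    (hc1 : ∀ i j, s i < s j → ¬ (A x (s i) = true ∧ A y (s i) = false ∧ A x (s j) = false ∧
      A y (s j) = true))
    (hc2 : ∀ i j, s i < s j → ¬ (A y (s i) = true ∧ A w (s i) = false ∧ A y (s j) = false ∧
      A w (s j) = true))
    (h1 : Wit A s c x y) (h2 : Wit A s c y w) : Wit A s c x w := by
  obtain ⟨i, hi, hi1, hi2⟩ := h1
  obtain ⟨j, hj, hj1, hj2⟩ := h2
  by_cases hw : A w (s i) = false
  · exact ⟨i, hi, hi1, hw⟩
  by_cases hx : A x (s j) = true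
  · exact ⟨j, hj, hx, hj2⟩
  have hw' : A w (s i) = true := by simpa using hw
  have hx' : A x (s j) = false := by simpa using hx
  have hne : s i ≠ s j := by
    intro he
    rw [he, hj1] at hi2
    exact absurd hi2 (by simp)
  rcases lt_or_gt_of_ne hne with h | h
  · exact absurd ⟨hi1, hi2, hx', hj1⟩ (hc1 i j h)
  · exact absurd ⟨hj1, hj2, hi2, hw'⟩ (hc2 j i h)

theorem wit_coclosed (A : Fin n → Fin n → Bool) (s : Fin K → Fin n) (c x y w : Fin n)
    (h : Wit A s c x w) : Wit A s c x y ∨ Wit A s c y w := by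
  obtain ⟨i, hi, hi1, hi2⟩ := h
  by_cases hy : A y (s i) = true
  · exact Or.inr ⟨i, hi, hy, hi2⟩
  · exact Or.inl ⟨i, hi, hi1, by simpa using hy⟩

theorem wit_mono (A : Fin n → Fin n → Bool) (s : Fin K → Fin n) (c c' x y : Fin n) (hc : c ≤ c')
    (h : Wit A s c x y) : Wit A s c' x y := by
  obtain ⟨i, hi, hi1, hi2⟩ := h
  exact ⟨i, hi.trans hc, hi1, hi2⟩

/-- The matrix built from a sample. -/
theorem build (A : Fin n → Fin n → Bool) (s : Fin K → Fin n) :
    ∃ (B : Fin n → Fin n → Bool) (zc : Fin n → ℕ) (σ : Fin K → Fin K → ℕ),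
      (∀ r1 r2 c1 c2, r1 < r2 → c1 < c2 →
        ¬ (B r1 c1 = true ∧ B r1 c2 = false ∧ B r2 c1 = false ∧ B r2 c2 = true)) ∧
      (∀ c, zc c * zc c ≤ typeA A s c + typeB A s c) ∧
      (∀ i j, σ i j * σ i j ≤ M A (s i) (s j)) ∧
      (univ.filter (fun e : Fin n × Fin n => A e.1 e.2 ≠ B e.1 e.2)).card ≤
        2 * ∑ c, zc c + n * ∑ i, ∑ j, 2 * σ i j := by
  have hcov : ∀ i j : Fin K, ∃ (Cov : Finset (Fin n)) (σ : ℕ), Cov.card ≤ 2 * σ ∧
      σ * σ ≤ M A (s i) (s j) ∧ (s i < s j → ∀ x y, x < y → x ∉ Cov → y ∉ Cov →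
        ¬ (A x (s i) = true ∧ A y (s i) = false ∧ A x (s j) = false ∧ A y (s j) = true)) := by
    intro i j
    by_cases h : s i < s j
    · obtain ⟨Cov, σ, h1, h2, h3⟩ := cover_exists A (s i) (s j) h
      exact ⟨Cov, σ, h1, h2, fun _ => h3⟩
    · exact ⟨∅, 0, by simp, by simp, fun h' => absurd h' h⟩
  choose Cov σ hσ1 hσ2 hσ3 using hcov
  set Bad : Finset (Fin n) := univ.biUnion (fun i => univ.biUnion (fun j => Cov i j)) with hBad
  set G : Finset (Fin n) := univ \ Bad with hG
  have hGmem : ∀ r, r ∈ G ↔ ∀ i j, r ∉ Cov i j := by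
    intro r
    simp [hG, hBad]
  have hclean : ∀ x ∈ G, ∀ y ∈ G, x < y → ∀ i j, s i < s j →
      ¬ (A x (s i) = true ∧ A y (s i) = false ∧ A x (s j) = false ∧ A y (s j) = true) := by
    intro x hx y hy hxy i j hij
    exact hσ3 i j hij x y hxy ((hGmem x).1 hx i j) ((hGmem y).1 hy i j)
  have hcol : ∀ c : Fin n, ∃ (T : Finset (Fin n)) (z : ℕ), T ⊆ G ∧
      (∀ x ∈ G, ∀ y ∈ G, x < y → x ∈ T → y ∉ T → Wit A s c x y) ∧
      (∀ x ∈ G, ∀ y ∈ G, x < y → x ∉ T → y ∈ T → ¬ Wit A s c x y) ∧
      (G.filter (fun r => (A r c = true ∧ r ∉ T) ∨ (¬ A r c = true ∧ r ∈ T))).card = 2 * z ∧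
      z * z ≤ typeA A s c + typeB A s c := by
    intro c
    obtain ⟨T, z, h1, h2, h3, h4, h5⟩ := column_fix G (Wit A s c) (fun r => A r c = true)
      (fun x hx y hy w hw hxy hyw h1 h2 =>
        wit_closed A s c x y w hxy hyw (hclean x hx y hy hxy) (hclean y hy w hw hyw) h1 h2)
      (fun x _ y _ w _ _ _ h => wit_coclosed A s c x y w h)
    refine ⟨T, z, h1, h2, h3, ?_, h5.trans (Nat.add_le_add ?_ ?_)⟩
    · convert h4
    · unfold typeA
      apply Finset.card_le_card
      intro p hp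
      simp only [mem_filter, mem_product, mem_univ, true_and] at hp ⊢
      exact ⟨hp.2.1, hp.2.2.1, by simpa using hp.2.2.2.1, hp.2.2.2.2⟩
    · unfold typeB
      apply Finset.card_le_card
      intro p hp
      simp only [mem_filter, mem_product, mem_univ, true_and] at hp ⊢
      exact ⟨hp.2.1, by simpa using hp.2.2.1, hp.2.2.2.1, hp.2.2.2.2⟩
  choose T zc hT1 hT2 hT3 hT4 hT5 using hcol
  refine ⟨fun r c => decide (r ∈ T c), zc, σ, ?_, hT5, hσ2, ?_⟩
  · rintro r1 r2 c1 c2 hr hc ⟨h1, h2, h3, h4⟩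
    simp only [decide_eq_true_eq, decide_eq_false_iff_not] at h1 h2 h3 h4
    have hr1 : r1 ∈ G := hT1 c1 h1
    have hr2 : r2 ∈ G := hT1 c2 h4
    have w1 := hT2 c1 r1 hr1 r2 hr2 hr h1 h3
    have w2 := hT3 c2 r1 hr1 r2 hr2 hr h2 h4
    exact w2 (wit_mono A s c1 c2 r1 r2 hc.le w1)
  · -- counting differences
    set F : Fin n → Finset (Fin n) := fun c =>
      G.filter (fun r => (A r c = true ∧ r ∉ T c) ∨ (¬ A r c = true ∧ r ∈ T c)) with hF
    have hsub : univ.filter (fun e : Fin n × Fin n => A e.1 e.2 ≠ decide (e.1 ∈ T e.2)) ⊆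
        (univ.biUnion (fun c => (F c).image (fun r => (r, c)))) ∪ (Bad ×ˢ univ) := by
      rintro ⟨r, c⟩ he
      simp only [mem_filter, mem_univ, true_and] at he
      by_cases hr : r ∈ G
      · apply Finset.mem_union_left
        simp only [mem_biUnion, mem_univ, true_and, mem_image]
        refine ⟨c, r, ?_, rfl⟩
        simp only [hF, mem_filter]
        refine ⟨hr, ?_⟩
        by_cases h1 : A r c = true
        · left
          refine ⟨h1, fun h2 => he ?_⟩
          simp [h1, h2]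
        · right
          refine ⟨h1, ?_⟩
          by_contra h2
          apply he
          have h3 : A r c = false := by simpa using h1
          simp [h3, h2]
      · apply Finset.mem_union_right
        simp only [mem_product, mem_univ, and_true]
        simp only [hG, mem_sdiff, mem_univ, true_and, not_not] at hr
        exact hr
    have hBadcard : Bad.card ≤ ∑ i, ∑ j, 2 * σ i j := by
      calc Bad.card ≤ ∑ i, (univ.biUnion (fun j => Cov i j)).card := Finset.card_biUnion_le
        _ ≤ ∑ i, ∑ j, (Cov i j).card := Finset.sum_le_sum fun i _ => Finset.card_biUnion_le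
        _ ≤ ∑ i, ∑ j, 2 * σ i j :=
          Finset.sum_le_sum fun i _ => Finset.sum_le_sum fun j _ => hσ1 i j
    calc _ ≤ ((univ.biUnion (fun c => (F c).image (fun r => (r, c)))) ∪ (Bad ×ˢ univ)).card :=
          Finset.card_le_card hsub
      _ ≤ (univ.biUnion (fun c => (F c).image (fun r => (r, c)))).card + (Bad ×ˢ univ).card :=
          Finset.card_union_le _ _
      _ ≤ 2 * ∑ c, zc c + n * ∑ i, ∑ j, 2 * σ i j := by
          apply Nat.add_le_add
          · calc _ ≤ ∑ c, ((F c).image (fun r => (r, c))).card := Finset.card_biUnion_le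
              _ ≤ ∑ c, (F c).card := Finset.sum_le_sum fun c _ => Finset.card_image_le
              _ = ∑ c, 2 * zc c := Finset.sum_congr rfl fun c _ => hT4 c
              _ = 2 * ∑ c, zc c := by rw [Finset.mul_sum]
          · rw [Finset.card_product]
            simp only [Finset.card_univ, Fintype.card_fin]
            rw [Nat.mul_comm]
            exact Nat.mul_le_mul_left n hBadcard

end P037Diag
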