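import Vale.Agent.P037.Fix

open Finset

namespace P037Diag

variable {n K : ℕ}

open scoped Classical

theorem choose_sample (A : Fin n → Fin n → Bool) (hK : 1 ≤ K) (hn : 1 ≤ n) (hN : 1 ≤ NN A) :
    ∃ s : Fin K → Fin n,
      ((∑ c, typeA A s c + ∑ c, typeB A s c : ℕ) : ℝ) ≤
        2 * ((n : ℝ) ^ 3 / ((K : ℝ) + 1) + (K : ℝ) * (NN A : ℝ) / (n : ℝ)) ∧
      ((∑ i, ∑ j, M A (s i) (s j) : ℕ) : ℝ) ≤
        2 * ((K : ℝ) ^ 2 * (NN A : ℝ) / (n : ℝ) ^ 2) := by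
  have hnR : (0 : ℝ) < n := by exact_mod_cast hn
  have hKR : (0 : ℝ) < K := by exact_mod_cast hK
  have hNR : (0 : ℝ) < NN A := by exact_mod_cast hN
  set E1 : ℝ := (n : ℝ) ^ 3 / ((K : ℝ) + 1) + (K : ℝ) * (NN A : ℝ) / (n : ℝ) with hE1
  set E2 : ℝ := (K : ℝ) ^ 2 * (NN A : ℝ) / (n : ℝ) ^ 2 with hE2
  have hE1pos : 0 < E1 := by positivity
  have hE2pos : 0 < E2 := by positivity
  have hT : (0 : ℝ) < (n : ℝ) ^ K := by positivity
  -- the three averages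
  have hX : ((∑ s : Fin K → Fin n, ∑ c, typeA A s c : ℕ) : ℝ) ≤
      (n : ℝ) ^ K * ((n : ℝ) ^ 3 / ((K : ℝ) + 1)) := by
    have h := sum_typeA (K := K) A
    have h' : ((K : ℝ) + 1) * ((∑ s : Fin K → Fin n, ∑ c, typeA A s c : ℕ) : ℝ) ≤
        (n : ℝ) ^ 2 * (n : ℝ) ^ (K + 1) := by exact_mod_cast h
    have hK1 : (0 : ℝ) < (K : ℝ) + 1 := by positivity
    have e : (n : ℝ) ^ K * ((n : ℝ) ^ 3 / ((K : ℝ) + 1)) =
        ((n : ℝ) ^ 2 * (n : ℝ) ^ (K + 1)) / ((K : ℝ) + 1) := by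
      field_simp
      ring
    rw [e, le_div_iff₀ hK1]
    linarith
  have hY : ((∑ s : Fin K → Fin n, ∑ c, typeB A s c : ℕ) : ℝ) ≤
      (n : ℝ) ^ K * ((K : ℝ) * (NN A : ℝ) / (n : ℝ)) := by
    have h := sum_typeB (K := K) A
    have h' : (n : ℝ) * ((∑ s : Fin K → Fin n, ∑ c, typeB A s c : ℕ) : ℝ) ≤
        (K : ℝ) * (n : ℝ) ^ K * (NN A : ℝ) := by exact_mod_cast h
    have e : (n : ℝ) ^ K * ((K : ℝ) * (NN A : ℝ) / (n : ℝ)) =
        ((K : ℝ) * (n : ℝ) ^ K * (NN A : ℝ)) / (n : ℝ) := by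
      field_simp
    rw [e, le_div_iff₀ hnR]
    linarith
  have hZ : ((∑ s : Fin K → Fin n, ∑ i, ∑ j, M A (s i) (s j) : ℕ) : ℝ) ≤
      (n : ℝ) ^ K * E2 := by
    have h := sum_Z (K := K) A
    have h' : (n : ℝ) * ((n : ℝ) * ((∑ s : Fin K → Fin n, ∑ i, ∑ j, M A (s i) (s j) : ℕ) : ℝ)) ≤
        (K : ℝ) * (K : ℝ) * (n : ℝ) ^ K * (NN A : ℝ) := by exact_mod_cast h
    have e : (n : ℝ) ^ K * E2 =
        ((K : ℝ) * (K : ℝ) * (n : ℝ) ^ K * (NN A : ℝ)) / (n : ℝ) ^ 2 := by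
      rw [hE2]
      field_simp
    rw [e, le_div_iff₀ (by positivity)]
    nlinarith
  have hne : (univ : Finset (Fin K → Fin n)).Nonempty := by
    have : Nonempty (Fin n) := ⟨⟨0, hn⟩⟩
    exact Finset.univ_nonempty
  have hcard : ((univ : Finset (Fin K → Fin n)).card : ℝ) = (n : ℝ) ^ K := by
    simp
  have hsum : ∑ s : Fin K → Fin n,
      (((∑ c, typeA A s c + ∑ c, typeB A s c : ℕ) : ℝ) / E1 +
        ((∑ i, ∑ j, M A (s i) (s j) : ℕ) : ℝ) / E2) ≤ ∑ _s : Fin K → Fin n, (2 : ℝ) := by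
    rw [Finset.sum_add_distrib, ← Finset.sum_div, ← Finset.sum_div]
    have h1 : ∑ s : Fin K → Fin n, ((∑ c, typeA A s c + ∑ c, typeB A s c : ℕ) : ℝ) ≤
        (n : ℝ) ^ K * E1 := by
      have : ∑ s : Fin K → Fin n, ((∑ c, typeA A s c + ∑ c, typeB A s c : ℕ) : ℝ) =
          ((∑ s : Fin K → Fin n, ∑ c, typeA A s c : ℕ) : ℝ) +
          ((∑ s : Fin K → Fin n, ∑ c, typeB A s c : ℕ) : ℝ) := by
        push_cast
        rw [Finset.sum_add_distrib]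
      rw [this, hE1, mul_add]
      linarith
    have h2 : ∑ s : Fin K → Fin n, ((∑ i, ∑ j, M A (s i) (s j) : ℕ) : ℝ) ≤ (n : ℝ) ^ K * E2 := by
      have : ∑ s : Fin K → Fin n, ((∑ i, ∑ j, M A (s i) (s j) : ℕ) : ℝ) =
          ((∑ s : Fin K → Fin n, ∑ i, ∑ j, M A (s i) (s j) : ℕ) : ℝ) := by
        push_cast
        rfl
      rw [this]
      exact hZ
    have h3 := div_le_of_le_mul₀ hE1pos.le hT.le h1
    have h4 := div_le_of_le_mul₀ hE2pos.le hT.le h2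
    have h5 : ∑ _s : Fin K → Fin n, (2 : ℝ) = 2 * (n : ℝ) ^ K := by
      rw [Finset.sum_const, nsmul_eq_mul, hcard]
      ring
    rw [h5]
    linarith
  obtain ⟨s, -, hs⟩ := Finset.exists_le_of_sum_le hne hsum
  refine ⟨s, ?_, ?_⟩
  · have hp : 0 ≤ ((∑ i, ∑ j, M A (s i) (s j) : ℕ) : ℝ) / E2 := by positivity
    have : ((∑ c, typeA A s c + ∑ c, typeB A s c : ℕ) : ℝ) / E1 ≤ 2 := by linarith
    rw [div_le_iff₀ hE1pos] at this
    exact this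
  · have hp : 0 ≤ ((∑ c, typeA A s c + ∑ c, typeB A s c : ℕ) : ℝ) / E1 := by positivity
    have : ((∑ i, ∑ j, M A (s i) (s j) : ℕ) : ℝ) / E2 ≤ 2 := by linarith
    rw [div_le_iff₀ hE2pos] at this
    exact this

/-- Numerical core: the two error terms are small when there are few copies. -/
theorem numeric (e m N k a b : ℝ) (he0 : 0 < e) (he1 : e < 1) (hm : 0 < m) (hN0 : 0 ≤ N)
    (hk0 : 0 < k) (hk1 : 64 ≤ k * e ^ 2) (hk2 : k * e ^ 2 ≤ 65)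
    (hN : N < e ^ 10 * m ^ 4 / 600000000)
    (ha0 : 0 ≤ a) (hb0 : 0 ≤ b)
    (ha : a ^ 2 ≤ m * (2 * (m ^ 3 / (k + 1) + k * N / m)))
    (hb : b ^ 2 ≤ k ^ 2 * (2 * (k ^ 2 * N / m ^ 2))) :
    2 * a + 2 * m * b < e * m ^ 2 := by
  have he2 : e ^ 2 ≤ 1 := by nlinarith
  have he2pos : 0 < e ^ 2 := by positivity
  have he6 : e ^ 6 ≤ 1 := pow_le_one₀ he0.le he1.le
  have hm4 : 0 < m ^ 4 := by positivity
  -- bound for a
  have ha1 : m * (2 * (m ^ 3 / (k + 1) + k * N / m)) = 2 * m ^ 4 / (k + 1) + 2 * (k * N) := by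
    field_simp
  have ha2 : 2 * m ^ 4 / (k + 1) ≤ e ^ 2 * m ^ 4 / 32 := by
    have hk3 : 0 < k + 1 := by linarith
    rw [div_le_div_iff₀ hk3 (by norm_num)]
    have : 64 ≤ (k + 1) * e ^ 2 := by nlinarith
    nlinarith
  have ha3 : 2 * (k * N) ≤ e ^ 2 * m ^ 4 / 32 := by
    have h1 : k * N ≤ k * (e ^ 10 * m ^ 4 / 600000000) :=
      mul_le_mul_of_nonneg_left hN.le hk0.le
    have h2 : k * (e ^ 10 * m ^ 4 / 600000000) = (k * e ^ 2) * (e ^ 8 * m ^ 4) / 600000000 := by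
      ring
    have h3 : (k * e ^ 2) * (e ^ 8 * m ^ 4) ≤ 65 * (e ^ 8 * m ^ 4) :=
      mul_le_mul_of_nonneg_right hk2 (by positivity)
    have h4 : e ^ 8 * m ^ 4 ≤ e ^ 2 * m ^ 4 := by
      have : e ^ 8 = e ^ 6 * e ^ 2 := by ring
      rw [this]
      have h5 : e ^ 6 * e ^ 2 ≤ 1 * e ^ 2 := mul_le_mul_of_nonneg_right he6 he2pos.le
      nlinarith
    have h6 : 0 < e ^ 2 * m ^ 4 := by positivity
    nlinarith
  have ha4 : a ≤ e * m ^ 2 / 4 := by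
    have h : a ^ 2 ≤ (e * m ^ 2 / 4) ^ 2 := by
      have e1 : (e * m ^ 2 / 4) ^ 2 = e ^ 2 * m ^ 4 / 16 := by ring
      rw [e1]
      rw [ha1] at ha
      linarith
    exact le_of_sq_le_sq h (by positivity)
  -- bound for b
  have hb1 : k ^ 2 * (2 * (k ^ 2 * N / m ^ 2)) = 2 * (k ^ 4 * N) / m ^ 2 := by
    field_simp
  have hb2 : k ^ 4 * N < e ^ 2 * m ^ 4 / 32 := by
    have hk4 : 0 < k ^ 4 := by positivity
    have h1 : k ^ 4 * N < k ^ 4 * (e ^ 10 * m ^ 4 / 600000000) :=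
      mul_lt_mul_of_pos_left hN hk4
    have h2 : k ^ 4 * (e ^ 10 * m ^ 4 / 600000000) =
        (k * e ^ 2) ^ 4 * (e ^ 2 * m ^ 4) / 600000000 := by ring
    have h3 : (k * e ^ 2) ^ 4 ≤ 65 ^ 4 := pow_le_pow_left₀ (by positivity) hk2 4
    have h6 : 0 < e ^ 2 * m ^ 4 := by positivity
    have h7 : (k * e ^ 2) ^ 4 * (e ^ 2 * m ^ 4) ≤ 65 ^ 4 * (e ^ 2 * m ^ 4) :=
      mul_le_mul_of_nonneg_right h3 h6.le
    nlinarith
  have hb3 : b < e * m / 4 := by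
    have h : b ^ 2 < (e * m / 4) ^ 2 := by
      have e1 : (e * m / 4) ^ 2 = e ^ 2 * m ^ 2 / 16 := by ring
      rw [e1]
      rw [hb1] at hb
      have hm2 : 0 < m ^ 2 := by positivity
      have h2 : 2 * (k ^ 4 * N) / m ^ 2 < e ^ 2 * m ^ 2 / 16 := by
        rw [div_lt_iff₀ hm2]
        have e2 : e ^ 2 * m ^ 2 / 16 * m ^ 2 = e ^ 2 * m ^ 4 / 16 := by ring
        rw [e2]
        linarith
      linarith
    exact lt_of_pow_lt_pow_left₀ 2 (by positivity) h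
  have hmb : m * b < m * (e * m / 4) := mul_lt_mul_of_pos_left hb3 hm
  have e3 : m * (e * m / 4) = e * m ^ 2 / 4 := by ring
  rw [e3] at hmb
  nlinarith

theorem free_of_NN_zero (A : Fin n → Fin n → Bool) (h : NN A = 0) :
    ∀ r1 r2 c1 c2, r1 < r2 → c1 < c2 →
      ¬ (A r1 c1 = true ∧ A r1 c2 = false ∧ A r2 c1 = false ∧ A r2 c2 = true) := by
  rintro r1 r2 c1 c2 hr hc ⟨h1, h2, h3, h4⟩
  have h5 : M A c1 c2 = 0 := by
    unfold NN at h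
    have := Finset.sum_eq_zero_iff.1 h c1 (Finset.mem_univ _)
    exact Finset.sum_eq_zero_iff.1 this c2 (Finset.mem_univ _)
  unfold M at h5
  rw [Finset.card_eq_zero, Finset.filter_eq_empty_iff] at h5
  exact h5 (x := (r1, r2)) (Finset.mem_univ _) ⟨hr, hc, h1, h3, h2, h4⟩

/-- Polynomial removal for the pattern with ones on the diagonal. -/
theorem main (A : Fin n → Fin n → Bool) (ε : ℝ) (h0 : 0 < ε) (h1 : ε < 1)
    (hfar : ∀ B : Fin n → Fin n → Bool,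
      (∀ r1 r2 c1 c2, r1 < r2 → c1 < c2 →
        ¬ (B r1 c1 = true ∧ B r1 c2 = false ∧ B r2 c1 = false ∧ B r2 c2 = true)) →
      ε * (n : ℝ) ^ 2 ≤ ((univ.filter (fun e : Fin n × Fin n => A e.1 e.2 ≠ B e.1 e.2)).card : ℝ)) :
    ε ^ 10 * (n : ℝ) ^ 4 / 600000000 ≤ (NN A : ℝ) := by
  by_contra hlt
  have hlt' : (NN A : ℝ) < ε ^ 10 * (n : ℝ) ^ 4 / 600000000 := not_le.1 hlt
  have hn : 1 ≤ n := by
    rcases Nat.eq_zero_or_pos n with h | h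
    · subst h
      have h2 : (0 : ℝ) ≤ (NN A : ℝ) := Nat.cast_nonneg _
      simp at hlt'
      linarith
    · exact h
  have hnR : (0 : ℝ) < n := by exact_mod_cast hn
  by_cases hN : NN A = 0
  · have hfree := free_of_NN_zero A hN
    have h3 := hfar A hfree
    have h4 : (univ.filter (fun e : Fin n × Fin n => A e.1 e.2 ≠ A e.1 e.2)) = ∅ := by
      apply Finset.filter_eq_empty_iff.2
      intro e _ h
      exact h rfl
    rw [h4] at h3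
    simp only [Finset.card_empty, Nat.cast_zero] at h3
    have : 0 < ε * (n : ℝ) ^ 2 := by positivity
    linarith
  have hN1 : 1 ≤ NN A := Nat.one_le_iff_ne_zero.2 hN
  set K : ℕ := ⌈64 / ε ^ 2⌉₊ with hK
  have he2 : 0 < ε ^ 2 := by positivity
  have hK1 : 64 / ε ^ 2 ≤ (K : ℝ) := Nat.le_ceil _
  have hK2 : (K : ℝ) < 64 / ε ^ 2 + 1 := Nat.ceil_lt_add_one (by positivity)
  have hk1 : 64 ≤ (K : ℝ) * ε ^ 2 := by
    rwa [div_le_iff₀ he2] at hK1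
  have hk2 : (K : ℝ) * ε ^ 2 ≤ 65 := by
    have : (K : ℝ) * ε ^ 2 < (64 / ε ^ 2 + 1) * ε ^ 2 := mul_lt_mul_of_pos_right hK2 he2
    have e1 : (64 / ε ^ 2 + 1) * ε ^ 2 = 64 + ε ^ 2 := by
      field_simp
    have : ε ^ 2 ≤ 1 := by nlinarith
    linarith
  have hKpos : 1 ≤ K := by
    have : (0 : ℝ) < (K : ℝ) := by
      by_contra h
      have h' : (K : ℝ) ≤ 0 := not_lt.1 h
      have : (K : ℝ) * ε ^ 2 ≤ 0 := mul_nonpos_of_nonpos_of_nonneg h' he2.le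
      linarith
    exact_mod_cast this
  obtain ⟨s, hs1, hs2⟩ := choose_sample (K := K) A hKpos hn hN1
  obtain ⟨B, zc, σ, hB, hz, hσ, hham⟩ := build A s
  have hhamR := hfar B hB
  have hhamle : ((univ.filter (fun e : Fin n × Fin n => A e.1 e.2 ≠ B e.1 e.2)).card : ℝ) ≤
      2 * (∑ c, (zc c : ℝ)) + (n : ℝ) * (2 * ∑ p : Fin K × Fin K, (σ p.1 p.2 : ℝ)) := by
    have e1 : ((2 * ∑ c, zc c + n * ∑ i, ∑ j, 2 * σ i j : ℕ) : ℝ) =
        2 * (∑ c, (zc c : ℝ)) + (n : ℝ) * (2 * ∑ p : Fin K × Fin K, (σ p.1 p.2 : ℝ)) := by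
      push_cast
      rw [Fintype.sum_prod_type]
      simp only [Finset.mul_sum]
    rw [← e1]
    exact_mod_cast hham
  set a : ℝ := ∑ c, (zc c : ℝ) with ha
  set b : ℝ := ∑ p : Fin K × Fin K, (σ p.1 p.2 : ℝ) with hb
  have ha0 : 0 ≤ a := Finset.sum_nonneg fun _ _ => Nat.cast_nonneg _
  have hb0 : 0 ≤ b := Finset.sum_nonneg fun _ _ => Nat.cast_nonneg _
  have ha2 : a ^ 2 ≤ (n : ℝ) * (2 * ((n : ℝ) ^ 3 / ((K : ℝ) + 1) + (K : ℝ) * (NN A : ℝ) / (n : ℝ))) := by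
    have h1 : a ^ 2 ≤ (n : ℝ) * ∑ c, ((zc c : ℝ)) ^ 2 := by
      have := sq_sum_le_card_mul_sum_sq (s := (univ : Finset (Fin n))) (f := fun c => (zc c : ℝ))
      simpa using this
    have h2 : ∑ c, ((zc c : ℝ)) ^ 2 ≤ ((∑ c, typeA A s c + ∑ c, typeB A s c : ℕ) : ℝ) := by
      push_cast
      rw [← Finset.sum_add_distrib]
      apply Finset.sum_le_sum
      intro c _
      have := hz c
      have h3 : ((zc c : ℝ)) * (zc c : ℝ) ≤ (typeA A s c : ℝ) + (typeB A s c : ℝ) := by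
        exact_mod_cast this
      nlinarith
    calc a ^ 2 ≤ (n : ℝ) * ∑ c, ((zc c : ℝ)) ^ 2 := h1
      _ ≤ (n : ℝ) * ((∑ c, typeA A s c + ∑ c, typeB A s c : ℕ) : ℝ) :=
          mul_le_mul_of_nonneg_left h2 hnR.le
      _ ≤ _ := mul_le_mul_of_nonneg_left hs1 hnR.le
  have hb2 : b ^ 2 ≤ (K : ℝ) ^ 2 * (2 * ((K : ℝ) ^ 2 * (NN A : ℝ) / (n : ℝ) ^ 2)) := by
    have h1 : b ^ 2 ≤ (K : ℝ) ^ 2 * ∑ p : Fin K × Fin K, ((σ p.1 p.2 : ℝ)) ^ 2 := by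
      have := sq_sum_le_card_mul_sum_sq (s := (univ : Finset (Fin K × Fin K)))
        (f := fun p => (σ p.1 p.2 : ℝ))
      have e1 : (((univ : Finset (Fin K × Fin K)).card : ℕ) : ℝ) = (K : ℝ) ^ 2 := by
        simp [Finset.card_univ, sq]
      rw [e1] at this
      simpa using this
    have h2 : ∑ p : Fin K × Fin K, ((σ p.1 p.2 : ℝ)) ^ 2 ≤
        ((∑ i, ∑ j, M A (s i) (s j) : ℕ) : ℝ) := by
      push_cast
      rw [Fintype.sum_prod_type]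
      apply Finset.sum_le_sum
      intro i _
      apply Finset.sum_le_sum
      intro j _
      have := hσ i j
      have h3 : ((σ i j : ℝ)) * (σ i j : ℝ) ≤ (M A (s i) (s j) : ℝ) := by
        exact_mod_cast this
      nlinarith
    calc b ^ 2 ≤ (K : ℝ) ^ 2 * ∑ p : Fin K × Fin K, ((σ p.1 p.2 : ℝ)) ^ 2 := h1
      _ ≤ (K : ℝ) ^ 2 * ((∑ i, ∑ j, M A (s i) (s j) : ℕ) : ℝ) :=
          mul_le_mul_of_nonneg_left h2 (by positivity)
      _ ≤ _ := mul_le_mul_of_nonneg_left hs2 (by positivity)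
  have hKR : (0 : ℝ) < K := by exact_mod_cast hKpos
  have hfinal := numeric ε (n : ℝ) (NN A : ℝ) (K : ℝ) a b h0 h1 hnR (Nat.cast_nonneg _) hKR hk1 hk2
    hlt' ha0 hb0 ha2 hb2
  have e2 : 2 * a + (n : ℝ) * (2 * b) = 2 * a + 2 * (n : ℝ) * b := by ring
  rw [e2] at hhamle
  linarith

end P037Diag
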