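import Vale.Agent.P037.Column

open Finset

namespace P037Diag

/-- Averaging a function of one coordinate over all tuples. -/
theorem sum_eval {ι α : Type*} [Fintype ι] [DecidableEq ι] [Fintype α] [DecidableEq α]
    (i : ι) (f : α → ℕ) :
    Fintype.card α * ∑ s : ι → α, f (s i) = Fintype.card (ι → α) * ∑ a, f a := by
  classical
  have h1 : ∑ s : ι → α, f (s i) =
      Fintype.card ({ j // j ≠ i } → α) * ∑ a, f a := by
    rw [← Equiv.sum_comp (Equiv.funSplitAt i α).symm]
    rw [Fintype.sum_prod_type]
    simp only [Equiv.funSplitAt_symm_apply]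
    simp only [Finset.sum_const, Finset.card_univ, smul_eq_mul, dite_true]
    rw [Finset.mul_sum]
  have h2 : Fintype.card (ι → α) = Fintype.card α * Fintype.card ({ j // j ≠ i } → α) := by
    rw [Fintype.card_congr (Equiv.funSplitAt i α), Fintype.card_prod]
  rw [h1, h2]
  ring

/-- Averaging a function of two different coordinates over all tuples. -/
theorem sum_eval2 {ι α : Type*} [Fintype ι] [DecidableEq ι] [Fintype α] [DecidableEq α]
    (i j : ι) (hij : i ≠ j) (g : α → α → ℕ) :
    Fintype.card α * (Fintype.card α * ∑ s : ι → α, g (s i) (s j)) =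
      Fintype.card (ι → α) * ∑ a, ∑ b, g a b := by
  classical
  have h1 : ∑ s : ι → α, g (s i) (s j) =
      ∑ a, ∑ t : { j // j ≠ i } → α, g a (t ⟨j, hij.symm⟩) := by
    rw [← Equiv.sum_comp (Equiv.funSplitAt i α).symm]
    rw [Fintype.sum_prod_type]
    apply Finset.sum_congr rfl
    intro a _
    apply Finset.sum_congr rfl
    intro t _
    simp only [Equiv.funSplitAt_symm_apply, dite_true]
    simp [hij.symm]
  have h2 : Fintype.card (ι → α) = Fintype.card α * Fintype.card ({ j // j ≠ i } → α) := by
    rw [Fintype.card_congr (Equiv.funSplitAt i α), Fintype.card_prod]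
  have h3 : ∀ a, Fintype.card α * ∑ t : { j // j ≠ i } → α, g a (t ⟨j, hij.symm⟩) =
      Fintype.card ({ j // j ≠ i } → α) * ∑ b, g a b := by
    intro a
    exact sum_eval (ι := { j // j ≠ i }) ⟨j, hij.symm⟩ (g a)
  rw [h1, h2, Finset.mul_sum, Finset.mul_sum, Finset.mul_sum]
  apply Finset.sum_congr rfl
  intro a _
  rw [h3 a]
  ring

/-- Number of tuples with all coordinates in a given set. -/
theorem card_tuples_in {α : Type*} [Fintype α] [DecidableEq α] (K : ℕ) (E : Finset α) :
    (univ.filter (fun s : Fin K → α => ∀ i, s i ∈ E)).card = E.card ^ K := by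
  classical
  have : univ.filter (fun s : Fin K → α => ∀ i, s i ∈ E) = Fintype.piFinset (fun _ => E) := by
    ext s
    simp [Fintype.mem_piFinset]
  rw [this, Fintype.card_piFinset]
  simp

/-- Power sums are bounded by the integral. -/
theorem sum_pow_bound (K n : ℕ) : (K + 1) * ∑ v ∈ range n, v ^ K ≤ n ^ (K + 1) := by
  induction n with
  | zero => simp
  | succ m ih =>
    rw [Finset.sum_range_succ, Nat.mul_add]
    have key : m ^ (K + 1) + (K + 1) * m ^ K ≤ (m + 1) ^ (K + 1) := by
      clear ih
      induction K with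
      | zero => simp
      | succ L ihL =>
        have : (m + 1) ^ (L + 1 + 1) = (m + 1) * (m + 1) ^ (L + 1) := by ring
        rw [this]
        have h2 := Nat.mul_le_mul_left (m + 1) ihL
        refine le_trans ?_ h2
        have e1 : m ^ (L + 1 + 1) = m * m ^ (L + 1) := by ring
        have e2 : m ^ (L + 1) = m * m ^ L := by ring
        rw [e1]
        nlinarith [Nat.zero_le (m ^ L), Nat.zero_le (L * m ^ L), e2]
    omega

/-- Key count for uncovered columns of one pair of rows. -/
theorem uncovered_bound {n : ℕ} (K : ℕ) (W : Finset (Fin n)) :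
    (K + 1) * ∑ c ∈ W, (univ.filter (fun s : Fin K → Fin n =>
      ∀ i, ¬ (s i ≤ c ∧ s i ∈ W))).card ≤ n ^ (K + 1) := by
  classical
  set E : Fin n → Finset (Fin n) := fun c => univ.filter (fun a => ¬ (a ≤ c ∧ a ∈ W)) with hE
  have h1 : ∀ c, (univ.filter (fun s : Fin K → Fin n => ∀ i, ¬ (s i ≤ c ∧ s i ∈ W))).card
      = (E c).card ^ K := by
    intro c
    rw [← card_tuples_in K (E c)]
    congr 1
    ext s
    simp [hE]
  have hlt : ∀ c ∈ W, (E c).card < n := by
    intro c hc
    have : E c ⊂ univ := by
      refine ⟨Finset.subset_univ _, fun hsub => ?_⟩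
      have := hsub (Finset.mem_univ c)
      simp [hE, hc] at this
    have := Finset.card_lt_card this
    simpa using this
  have hinj : Set.InjOn (fun c => (E c).card) (W : Set (Fin n)) := by
    have hstrict : ∀ c ∈ W, ∀ c' ∈ W, c < c' → (E c').card < (E c).card := by
      intro c hc c' hc' hlt
      apply Finset.card_lt_card
      refine ⟨?_, fun hsub => ?_⟩
      · intro a ha
        simp only [hE, mem_filter, mem_univ, true_and, not_and] at ha ⊢
        intro hac
        exact ha (hac.trans hlt.le)
      · have hmem : c' ∈ E c := by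
          simp only [hE, mem_filter, mem_univ, true_and, not_and]
          intro h
          exact absurd h (not_le.2 hlt)
        have := hsub hmem
        simp [hE, hc'] at this
    intro c hc c' hc' heq
    by_contra hne
    rcases lt_or_gt_of_ne hne with h | h
    · have := hstrict c hc c' hc' h
      simp only at heq
      omega
    · have := hstrict c' hc' c hc h
      simp only at heq
      omega
  have h2 : ∑ c ∈ W, (E c).card ^ K ≤ ∑ v ∈ range n, v ^ K := by
    have himg : W.image (fun c => (E c).card) ⊆ range n := by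
      intro v hv
      obtain ⟨c, hc, rfl⟩ := Finset.mem_image.1 hv
      exact Finset.mem_range.2 (hlt c hc)
    calc ∑ c ∈ W, (E c).card ^ K = ∑ v ∈ W.image (fun c => (E c).card), v ^ K := by
          rw [Finset.sum_image hinj]
      _ ≤ ∑ v ∈ range n, v ^ K := Finset.sum_le_sum_of_subset himg
  calc (K + 1) * ∑ c ∈ W, (univ.filter (fun s : Fin K → Fin n =>
        ∀ i, ¬ (s i ≤ c ∧ s i ∈ W))).card
      = (K + 1) * ∑ c ∈ W, (E c).card ^ K := by simp_rw [h1]
    _ ≤ (K + 1) * ∑ v ∈ range n, v ^ K := Nat.mul_le_mul_left _ h2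
    _ ≤ n ^ (K + 1) := sum_pow_bound K n

end P037Diag
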